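import Vale.Agent.P093.HB.H3

/-!
# The linear family

The linear version of `Hom.exists_family`: for every window `[0, N)` and every `p ≤ s N - C` there are
linear maps `F x : ℂ ^ p → ⨁ ℂ` (indexed by window starts, groups, levels and two coordinates),
continuous in `x`, injective for every `x`, with values in the nested Hopf lines.
-/

open Filter Topology Set
open scoped ENNReal ComplexOrder

namespace Vale.Agent.P093.Hom

section

variable {X : Type*} [TopologicalSpace X] {n m p : ℕ}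

/-- the values at the nodes, linear in `q` -/
noncomputable def linZ (h : X ≃ₜ X) (g : Fin n → C(X, ℝ)) (x : X) (j : ℤ) (l : Fin n) :
    (Fin p → ℂ) →ₗ[ℂ] ℂ :=
  ((max 0 (g l ((h ^ j) x) - 3 / 4) : ℝ) : ℂ) •
    ∑ i : Fin p, (famNode n j l ^ (i : ℕ)) • (LinearMap.proj i : (Fin p → ℂ) →ₗ[ℂ] ℂ)

theorem linZ_apply (h : X ≃ₜ X) (g : Fin n → C(X, ℝ)) (x : X) (j : ℤ) (l : Fin n)
    (q : Fin p → ℂ) : linZ h g x j l q =
      ((max 0 (g l ((h ^ j) x) - 3 / 4) : ℝ) : ℂ) * ∑ i : Fin p, famNode n j l ^ (i : ℕ) * q i := by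
  simp [linZ, LinearMap.sum_apply]

/-- the vector `u`, linear in `q` -/
noncomputable def linU (h : X ≃ₜ X) (g : Fin n → C(X, ℝ)) (K : Fin m → Fin n → ℤ → ℤ → C(X, ℂ))
    (R N : ℕ) (x : X) (i : ℤ) (κ' : Fin m) : (Fin p → ℂ) →ₗ[ℂ] ℂ :=
  ∑ l, ∑ j ∈ Finset.Ico (0 : ℤ) N,
    if i ∈ Finset.Icc (j - (R : ℤ)) (j + R) then K κ' l i j x • linZ h g x j l else 0

theorem linU_apply (h : X ≃ₜ X) (g : Fin n → C(X, ℝ)) (K : Fin m → Fin n → ℤ → ℤ → C(X, ℂ))
    (R N : ℕ) (x : X) (i : ℤ) (κ' : Fin m) (q : Fin p → ℂ) : linU h g K R N x i κ' q =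
      ∑ l, ∑ j ∈ Finset.Ico (0 : ℤ) N,
        if i ∈ Finset.Icc (j - (R : ℤ)) (j + R) then K κ' l i j x * linZ h g x j l q else 0 := by
  unfold linU
  rw [LinearMap.sum_apply]
  refine Finset.sum_congr rfl fun l _ => ?_
  rw [LinearMap.sum_apply]
  refine Finset.sum_congr rfl fun j _ => ?_
  split_ifs <;> simp

theorem linZ_cont (h : X ≃ₜ X) (g : Fin n → C(X, ℝ)) (j : ℤ) (l : Fin n) :
    Continuous fun z : X × (Fin p → ℂ) => linZ h g z.1 j l z.2 := by
  simp only [linZ_apply]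
  refine Continuous.mul ?_ ?_
  · refine Complex.continuous_ofReal.comp (continuous_const.max ?_)
    exact (((g l).continuous.comp ((h ^ j).continuous.comp continuous_fst)).sub continuous_const)
  · refine continuous_finsetSum _ fun i _ => ?_
    fun_prop

theorem linU_cont (h : X ≃ₜ X) (g : Fin n → C(X, ℝ)) (K : Fin m → Fin n → ℤ → ℤ → C(X, ℂ))
    (R N : ℕ) (i : ℤ) (κ' : Fin m) :
    Continuous fun z : X × (Fin p → ℂ) => linU h g K R N z.1 i κ' z.2 := by
  simp only [linU_apply]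
  refine continuous_finsetSum _ fun l _ => continuous_finsetSum _ fun j _ => ?_
  split_ifs
  · exact ((K κ' l i j).continuous.comp continuous_fst).mul (linZ_cont h g j l)
  · exact continuous_const

theorem linU_zero (h : X ≃ₜ X) (g : Fin n → C(X, ℝ)) (K : Fin m → Fin n → ℤ → ℤ → C(X, ℂ))
    (R N : ℕ) (x : X) (i : ℤ) (κ' : Fin m)
    (hi : i < -(R : ℤ) ∨ (N : ℤ) + R ≤ i) (q : Fin p → ℂ) : linU h g K R N x i κ' q = 0 := by
  rw [linU_apply]
  refine Finset.sum_eq_zero fun l _ => Finset.sum_eq_zero fun j hj => ?_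
  rw [if_neg]
  rw [Finset.mem_Ico] at hj
  rw [Finset.mem_Icc]
  omega

theorem linZ_ne (h : X ≃ₜ X) (g : Fin n → C(X, ℝ)) (x : X) (q : Fin p → ℂ) (j : ℤ)
    (l : Fin n) (hz : linZ h g x j l q ≠ 0) : 3 / 4 ≤ g l ((h ^ j) x) := by
  by_contra hlt
  apply hz
  rw [linZ_apply, max_eq_left (by linarith [not_le.1 hlt])]
  simp

/-- too many nodes -/
theorem linZ_nonvanishing (h : X ≃ₜ X) (g : Fin n → C(X, ℝ)) (x : X) (q : Fin p → ℂ)
    (hq : q ≠ 0) (N : ℕ) (S : Finset (Fin N × Fin n))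
    (hS : ∀ a ∈ S, g a.2 ((h ^ ((a.1 : ℕ) : ℤ)) x) = 1) (hcard : p ≤ S.card)
    (hz : ∀ j ∈ Finset.Ico (0 : ℤ) N, ∀ l, linZ h g x j l q = 0) : False := by
  classical
  have h1 : ∀ a ∈ S, ∑ i : Fin p, famNode n ((a.1 : ℕ) : ℤ) a.2 ^ (i : ℕ) * q i = 0 := by
    intro a ha
    have h2 := hz ((a.1 : ℕ) : ℤ) (by rw [Finset.mem_Ico]; omega) a.2
    rw [linZ_apply, hS a ha, mul_eq_zero] at h2
    rcases h2 with h2 | h2
    · exfalso
      rw [max_eq_right (by norm_num)] at h2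
      norm_num at h2
    · exact h2
  -- choose `p` distinct nodes
  obtain ⟨T, hTS, hT⟩ := Finset.exists_subset_card_eq hcard
  let v : Fin p → ℂ := fun i => famNode n (((T.equivFin.symm (Fin.cast hT.symm i)).1.1 : ℕ) : ℤ)
    (T.equivFin.symm (Fin.cast hT.symm i)).1.2
  have hv : Function.Injective v := by
    intro i i' hii
    obtain ⟨e5, e6⟩ := famNode_inj hii
    have e7 : (T.equivFin.symm (Fin.cast hT.symm i)).1 = (T.equivFin.symm (Fin.cast hT.symm i')).1 := by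
      refine Prod.ext (Fin.ext ?_) e6
      exact_mod_cast e5
    have e8 := T.equivFin.symm.injective (Subtype.ext e7)
    exact Fin.cast_injective _ e8
  have hdet : (Matrix.vandermonde v).det ≠ 0 := Matrix.det_vandermonde_ne_zero_iff.2 hv
  have h3 : (Matrix.vandermonde v).mulVec q = 0 := by
    funext i
    have := h1 _ (hTS (T.equivFin.symm (Fin.cast hT.symm i)).2)
    simpa [Matrix.mulVec, dotProduct, Matrix.vandermonde_apply, v] using this
  exact hq (Matrix.eq_zero_of_mulVec_eq_zero hdet h3)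

end

open scoped Classical in
/-- The linear family: for every window length `N` and every `p ≤ s N - C`, linear maps
`F i G k e x : ℂ ^ p → ℂ`, jointly continuous, jointly injective for each `x`, switched off where
`ω (h ^ (i - R) x) ≤ 3 / 4`, with values in the nested Hopf lines. -/
theorem exists_family_lin {X : Type*} [MetricSpace X] [CompactSpace X] [Infinite X]
    {A : Type*} [CStarAlgebra A] [PartialOrder A] [StarOrderedRing A] {h : X ≃ₜ X}
    (hmin : IsMinimalHomeo h) (hA : IsCrossedProduct h A) {r : ℝ} (hr : IsComparisonBound A r)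
    {κ t L : ℕ} (ω : C(X, ℝ)) (hω0 : ∀ x, 0 ≤ ω x) (hω1 : ∀ x, ω x ≤ 1)
    {ε : ℝ} (hcount : ∃ C : ℝ, ∀ x (N : ℕ), (1 - ε) * N / L - C ≤
      ((Finset.range N).filter fun i : ℕ => ω ((h ^ (i : ℤ)) x) = 1).card)
    (ψ : Fin t → ℕ → C(X, ℝ)) {s : ℝ} (hs0 : 0 ≤ s) (hs : s + r < κ * t * (1 - ε) / L) :
    ∃ (R : ℕ) (C : ℝ), ∀ (N p : ℕ), (p : ℝ) ≤ s * N - C →
      ∃ F : Fin (N + 2 * R) → Fin t → Fin κ → Fin 2 → X → (Fin p → ℂ) →ₗ[ℂ] ℂ,
        (∀ i G k e, Continuous fun z : X × (Fin p → ℂ) => F i G k e z.1 z.2) ∧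
        (∀ x q, q ≠ 0 → ∃ i G k e, F i G k e x q ≠ 0) ∧
        (∀ (i : Fin (N + 2 * R)) G k e x q, F i G k e x q ≠ 0 →
          3 / 4 < ω ((h ^ ((i : ℕ) - (R : ℤ) : ℤ)) x)) ∧
        ∀ (i : Fin (N + 2 * R)) G (k : Fin κ) x q, let x' := (h ^ ((i : ℕ) - (R : ℤ) : ℤ)) x
          rho k / 2 ≤ rad (nF (fun j x => ψ G j x - 1 / 2) rho k)
            (fun x => ψ G (2 * k + 1) x - 1 / 2) (fun x => ψ G (2 * k + 2) x - 1 / 2) x' →
          HopfRel (nF (fun j x => ψ G j x - 1 / 2) rho k x')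
            (ψ G (2 * k + 1) x' - 1 / 2) (ψ G (2 * k + 2) x' - 1 / 2)
            (F i G k 0 x q) (F i G k 1 x q) := by
  have hfree : ∀ (k : ℤ) (x : X), k ≠ 0 → (h ^ k) x ≠ x := by
    intro k x hk
    rcases lt_trichotomy k 0 with h0 | h0 | h0
    · intro hx
      refine not_periodic h hmin x (n := -k) (by omega) ?_
      have h1 : (h ^ (-k)) ((h ^ k) x) = x := by
        rw [← zpow_add_apply']; simp
      rwa [hx] at h1
    · exact absurd h0 hk
    · exact not_periodic h hmin x h0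
  obtain ⟨C₀, hC₀⟩ := hcount
  obtain ⟨M, hM⟩ : ∃ M : ℝ, M = κ * t * (1 - ε) / L := ⟨_, rfl⟩
  obtain ⟨δ, hδ⟩ : ∃ δ : ℝ, δ = (M - s - r) / 3 := ⟨_, rfl⟩
  have hδ0 : 0 < δ := by rw [hδ, hM]; linarith
  obtain ⟨n, g, G, hg0, hg1, hG0, hG, C₁, hC₁⟩ := exists_scalar h hmin hs0 (s' := s + δ) (by linarith)
  obtain ⟨β', hβ'1, hβ'2, hβ'3, hβ'4, hβ'5, hβ'6⟩ := exists_b (κ := κ) ω hω0 hω1 ψ
  obtain ⟨m, E, -⟩ : ∃ (m : ℕ) (E : Fin t × Fin κ × Fin 2 ≃ Fin m), True :=
    ⟨_, Fintype.equivFin _, trivial⟩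
  let β : Fin m → Fin m → C(X, ℂ) := fun k k' => β' (E.symm k) (E.symm k')
  obtain ⟨N₀, hN₀⟩ := exists_nat_gt ((C₁ + t * κ * C₀) / δ)
  have hN₀' : C₁ + t * κ * C₀ ≤ δ * (N₀ + 1 : ℕ) := by
    rw [div_lt_iff₀ hδ0] at hN₀
    push_cast
    nlinarith
  have b1 : ∀ x, (Matrix.of fun k k' => β k k' x).PosSemidef := fun x =>
    (hβ'1 x).submatrix E.symm
  have b2 : ∀ x, (1 - Matrix.of fun k k' => β k k' x).PosSemidef := by
    intro x
    have h1 := (hβ'2 x).submatrix E.symm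
    have h2 : (1 - Matrix.of fun k k' => β k k' x) =
        (1 - Matrix.of fun k k' => β' k k' x).submatrix E.symm E.symm := by
      ext i j
      simp [β, Matrix.one_apply]
    rw [h2]; exact h1
  have b3 : ∀ x, ∑ j ∈ Finset.range (N₀ + 1), ∑ l, G l ((h ^ (j : ℤ)) x) +
      (r + δ) * (N₀ + 1 : ℕ) ≤
      ∑ j ∈ Finset.range (N₀ + 1), ∑ k, (β k k ((h ^ (j : ℤ)) x)).re := by
    intro x
    have h1 := (hC₁ x (N₀ + 1)).1
    have h2 := hC₀ x (N₀ + 1)
    have h3 : ∀ j : ℕ, (if ω ((h ^ (j : ℤ)) x) = 1 then (t * κ : ℝ) else 0) ≤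
        ∑ k, (β k k ((h ^ (j : ℤ)) x)).re := by
      intro j
      have e : ∑ k, (β k k ((h ^ (j : ℤ)) x)).re = ∑ k, (β' k k ((h ^ (j : ℤ)) x)).re :=
        Equiv.sum_comp E.symm fun k => (β' k k ((h ^ (j : ℤ)) x)).re
      rw [e]
      split_ifs with h4
      · exact hβ'3 _ h4
      · exact hβ'4 _
    have h5 := Finset.sum_le_sum (s := Finset.range (N₀ + 1)) fun j _ => h3 j
    rw [← Finset.sum_filter, Finset.sum_const, nsmul_eq_mul] at h5
    have h6 : (t * κ : ℝ) * ((1 - ε) * (N₀ + 1 : ℕ) / L - C₀) ≤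
        (((Finset.range (N₀ + 1)).filter fun i : ℕ => ω ((h ^ (i : ℤ)) x) = 1).card : ℝ) *
          (t * κ) := by
      rw [mul_comm]
      exact mul_le_mul_of_nonneg_right h2 (by positivity)
    have h7 : (t * κ : ℝ) * ((1 - ε) * (N₀ + 1 : ℕ) / L - C₀) =
        M * (N₀ + 1 : ℕ) - t * κ * C₀ := by
      rw [hM]; ring
    have h8 : M = s + r + 3 * δ := by rw [hδ]; ring
    rw [h7, h8] at h6
    linarith
  obtain ⟨R, K, hcore⟩ := exists_core (β := β) hfree hA hr g G (r + δ) (N₀ + 1) (Nat.succ_pos _)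
    (by linarith) hg0 hg1 hG0 hG b1 b2 b3
  refine ⟨R, C₁, fun N p hNp => ?_⟩
  refine ⟨fun i G k e x => ∑ κ', β' (G, k, e) κ' ((h ^ ((i : ℕ) - (R : ℤ) : ℤ)) x) •
    linU h g K R N x ((i : ℕ) - (R : ℤ) : ℤ) (E κ'), ?_, ?_, ?_, ?_⟩
  · intro i G k e
    simp only [LinearMap.sum_apply, LinearMap.smul_apply, smul_eq_mul]
    refine continuous_finsetSum _ fun κ' _ => ?_
    exact ((β' (G, k, e) κ').continuous.comp ((h ^ _).continuous.comp continuous_fst)).mul
      (linU_cont h g K R N _ _)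
  · intro x q hq
    by_contra hcon
    push Not at hcon
    have hz := hcore x (Finset.Ico (0 : ℤ) N) (fun j l => linZ h g x j l q)
      (fun j _ l hz => linZ_ne h g x q j l hz) ?_
    · refine linZ_nonvanishing h g x q hq N (Finset.univ.filter
        (fun p : Fin N × Fin n => g p.2 ((h ^ ((p.1 : ℕ) : ℤ)) x) = 1)) ?_ ?_ hz
      · intro a ha
        exact (Finset.mem_filter.1 ha).2
      · have h1 := (hC₁ x N).2
        have h2 : (p : ℝ) ≤ ((Finset.univ.filter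
          (fun p : Fin N × Fin n => g p.2 ((h ^ ((p.1 : ℕ) : ℤ)) x) = 1)).card : ℝ) := by
          linarith
        exact_mod_cast h2
    · intro i κ₁
      simp only [← linU_apply]
      by_cases hi : i < -(R : ℤ) ∨ (N : ℤ) + R ≤ i
      · refine Finset.sum_eq_zero fun κ' _ => ?_
        rw [linU_zero h g K R N x i κ' hi, mul_zero]
      · push Not at hi
        obtain ⟨i', hi'⟩ : ∃ i' : Fin (N + 2 * R), i = (i' : ℕ) - (R : ℤ) := by
          refine ⟨⟨(i + R).toNat, ?_⟩, ?_⟩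
          · omega
          · dsimp only
            omega
        have h1 := hcon i' (E.symm κ₁).1 (E.symm κ₁).2.1 (E.symm κ₁).2.2
        rw [← hi'] at h1
        rw [LinearMap.sum_apply] at h1
        rw [← Equiv.sum_comp E]
        simpa [β] using h1
  · intro i G k e x q hne
    rw [LinearMap.sum_apply] at hne
    obtain ⟨κ', -, hκ'⟩ := Finset.exists_ne_zero_of_sum_ne_zero hne
    rw [LinearMap.smul_apply, smul_eq_mul] at hκ'
    exact hβ'5 _ _ _ (left_ne_zero_of_mul hκ')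
  · intro i G k x q x' hx'
    have h1 := hβ'6 x' (fun κ' => linU h g K R N x ((i : ℕ) - (R : ℤ) : ℤ) (E κ') q) G k hx'
    simpa [LinearMap.sum_apply] using h1

end Vale.Agent.P093.Hom
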